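import Vale.Agent.P261.H432.Final

/-!
# P261: the lines `0` and `1` of the `E₂`-term of the `K(n)`-local Adams-Novikov spectral sequence

`Γ` is the height `n` Honda formal group law, `F` over `E₀ = W(𝔽_{p^n})[[u_1, …, u_{n-1}]]` its
universal deformation (Lubin-Tate), `actionGroup` the image of the extended Morava stabilizer
group `G_n` in the automorphisms of the ring `E₀` (definitions in `Vale.Agent.P217.LT` and
`Vale.Agent.P217.H260.Defs`), `Stab F` is `G_n` itself, as the group of the pairs `(φ, g)`, and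
`Stab.act F k` is its action on `E_{2k} = π_{2k} E_n`; `SemiAct π M ρ` says that `ρ` is a semilinear
action of the group `𝔾` on the `E₀`-module `M`, and `IsCrossed ρ c` that `c` is a crossed
homomorphism `𝔾 → M` (1-cocycle).
-/

namespace Vale.Agent.Results.P261.AlgebraicLines

open Vale.Agent.P217.LT Vale.Agent.P261.H432

universe u v

/-- For every prime `p` and height `n ≥ 1` (the objects exist, `ℤ_p → E₀` is unique):

(A) for every group `𝔾` acting on `E₀` through a subgroup of finite index of `G_n` and every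
finitely generated `E₀`-module `M` with a semilinear action of `𝔾`:
 1. `H⁰(𝔾; M) = M^𝔾` is a finitely generated `ℤ_p`-module, and finite if `M` is `p`-power torsion;
 2. if `M` is `p`-torsion free, the classes in `H¹(𝔾; M)` killed by `p^k` are finite in number;
 3. if `z ∈ 𝔾` is central, acts trivially on `E₀` and `ρ(z) - 1` is injective on `M`, then
    `H¹(𝔾; M)`, and every `ℤ_p`-submodule of it (such as the continuous classes), is a finitely
    generated `ℤ_p`-module;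

(B) `Stab F` is the group `G_n = Aut(Γ/𝔽_{p^n}) ⋊ Gal(𝔽_{p^n}/𝔽_p)`, `Stab.act F k` is a semilinear
action to which (A) applies, and for `k ≠ 0` one has `H⁰(G_n; E_{2k}) = 0` and every set of classes
in `H¹(G_n; E_{2k})` is finite. -/
theorem result (p n : ℕ) [Fact p.Prime] (hn : 1 ≤ n) :
    (∃! Γ, IsHonda p n Γ) ∧ (∀ Γ, IsHonda p n Γ → ∃ F, IsUniversal p n Γ F ∧ HeightAdapted p n F) ∧
    (∃! _ι : ℤ_[p] →+* E0 p n, True) ∧
    ∀ Γ, IsHonda p n Γ → ∀ F, IsUniversal p n Γ F → HeightAdapted p n F →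
      ∀ ι : ℤ_[p] →+* E0 p n,
      -- (A)
      (∀ (𝔾 : Type v) [Group 𝔾] (π : 𝔾 →* RingAut (E0 p n)), π.range ≤ actionGroup p n Γ F →
        π.range.relIndex (actionGroup p n Γ F) ≠ 0 →
        ∀ (M : Type u) [AddCommGroup M] [Module (E0 p n) M] [Module.Finite (E0 p n) M]
          (ρ : 𝔾 → M → M), SemiAct π M ρ →
          (∃ S : Finset M, ∀ m : M,
            (∀ g, ρ g m = m) ↔ ∃ a : M → ℤ_[p], m = ∑ s ∈ S, ι (a s) • s) ∧
          (∀ k : ℕ, (∀ m : M, (p : E0 p n) ^ k • m = 0) → {m : M | ∀ g, ρ g m = m}.Finite) ∧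
          ((∀ m : M, (p : E0 p n) • m = 0 → m = 0) → ∀ k : ℕ, ∀ C : Set (𝔾 → M),
            (∀ c ∈ C, IsCrossed ρ c ∧ ∃ m, ∀ g, (p : E0 p n) ^ k • c g = ρ g m - m) →
            ∃ S : Finset (𝔾 → M), (S : Set (𝔾 → M)) ⊆ C ∧
              ∀ c ∈ C, ∃ s ∈ S, ∃ m, ∀ g, c g = s g + (ρ g m - m)) ∧
          ∀ z : 𝔾, (∀ g, z * g = g * z) → π z = 1 → (∀ m, ρ z m = m → m = 0) →
            ∀ C : Set (𝔾 → M), (∀ c ∈ C, IsCrossed ρ c) → 0 ∈ C →
              (∀ c ∈ C, ∀ d ∈ C, c + d ∈ C) →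
              (∀ (a : ℤ_[p]), ∀ c ∈ C, (fun g => ι a • c g) ∈ C) →
              ∃ S : Finset (𝔾 → M), (S : Set (𝔾 → M)) ⊆ C ∧
                ∀ c ∈ C, ∃ (a : (𝔾 → M) → ℤ_[p]) (m : M),
                  ∀ g, c g = ∑ s ∈ S, ι (a s) • s g + (ρ g m - m)) ∧
      -- (B)
      ((∀ (σ : GaloisField p n ≃+* GaloisField p n) (γ : PowerSeries (GaloisField p n)),
          IsIso (base p n Γ) (base p n Γ) γ →
          ∃! a : Stab F, (∀ x, red p n (a.φ x) = σ (red p n x)) ∧ a.g.map (red p n) = γ) ∧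
        (∀ a : Stab F, (∃ σ : GaloisField p n ≃+* GaloisField p n,
            ∀ x, red p n (a.φ x) = σ (red p n x)) ∧
          IsIso (base p n Γ) (base p n Γ) (a.g.map (red p n))) ∧
        (Stab.toAut F).range = actionGroup p n Γ F ∧
        (∀ k : ℤ, SemiAct (Stab.toAut F) (E0 p n) (Stab.act F k)) ∧
        ∀ k : ℤ, k ≠ 0 →
          (∀ x, (∀ a, Stab.act F k a x = x) → x = 0) ∧
          ∀ C : Set (Stab F → E0 p n), (∀ c ∈ C, IsCrossed (Stab.act F k) c) →
            ∃ S : Finset (Stab F → E0 p n), (S : Set (Stab F → E0 p n)) ⊆ C ∧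
              ∀ c ∈ C, ∃ s ∈ S, ∃ x, ∀ a, c a = s a + (Stab.act F k a x - x)) := by
  obtain ⟨h1, h2⟩ := Vale.Agent.P217.LTC.final p n hn
  refine ⟨h1, fun Γ hΓ => (h2 Γ hΓ).2.1, ?_, fun Γ hΓ F hF hH ι => ⟨?_, ?_⟩⟩
  · obtain ⟨ι⟩ := exists_iota (p := p) (n := n)
    exact ⟨ι, trivial, fun ι' _ => iota_unique ι' ι⟩
  · intro 𝔾 _ π hU hfin M _ _ _ ρ hρ
    refine ⟨final_H0 hn hΓ hF hH ι π hU hfin M ρ hρ,
      fun k hk => fin_torsion hn hΓ hF hH π hU hfin hρ k hk,
      fun htf k C hC => final_ptors hn hΓ hF hH π hU hfin M ρ hρ htf k C (fun c hc => (hC c hc).2),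
      fun z hz hπz hinj C hC h0 hadd hsmul =>
        final_H1 hn hΓ hF hH ι π hU hfin M ρ hρ z hz hπz hinj C hC h0 hadd hsmul⟩
  · exact ⟨fun σ γ hγ => Stab.exists_unique hF σ γ hγ, fun a => Stab.exists_reduction hF a,
      Stab.range_toAut hF, fun k => semiAct_act k, fun k hk => final_sphere hn hΓ hF hH k hk⟩

end Vale.Agent.Results.P261.AlgebraicLines
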